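import Vale.Agent.P267.H462.Tp

/-!
# P267 / H518: existence of the glue data

`exists_dom`: a star shaped open neighbourhood `D` of the diagonal of `ov a b` on which the Hadamard
matrix of `tau a b` is invertible (`Tr.On`); `exists_gl`: `Nonempty (Gl B)` on a compact surface.
-/

set_option linter.unusedSectionVars false

open scoped Manifold ContDiff ComplexConjugate Matrix
open MeasureTheory Set Filter Topology Metric

noncomputable section

namespace Vale.Agent.P267.H518

open Vale.Agent.P267.FL Vale.Agent.P267.RR Vale.Agent.P267.H551 Vale.Agent.P267.H462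
open Vale.Agent.P267.H667 (IsCutoff kc cst exists_isCutoff)
open Vale.Agent.P267.H433

/-! ### star shaped cores -/

/-- the set of all `(x, y)` such that `W` contains all `(x, x + t (y - x))`, `0 ≤ t ≤ 1` -/
def core (W : Set VV) : Set VV := {p | ∀ t ∈ Icc (0 : ℝ) 1, sg t p ∈ W}

theorem sg_sg (s t : ℝ) (p : VV) : sg s (sg t p) = sg (s * t) p := by
  simp only [sg_apply]
  ext1
  · rfl
  · simp only [add_sub_cancel_left, smul_smul, Complex.ofReal_mul]

theorem core_sub (W : Set VV) : core W ⊆ W := by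
  intro p hp
  have := hp 1 ⟨zero_le_one, le_rfl⟩
  rwa [sg_one] at this

theorem starD_core {W : Set VV} (hW : IsOpen W) : StarD (core W) := by
  constructor
  · rw [isOpen_iff_mem_nhds]
    intro p hp
    have hc : Continuous fun z : VV × ℝ => sg z.2 z.1 :=
      (continuous_sg.comp continuous_snd).clm_apply continuous_fst
    exact isCompact_Icc.eventually_forall_of_forall_eventually
      (P := fun (q : VV) (t : ℝ) => sg t q ∈ W) fun t ht =>
        hc.continuousAt.preimage_mem_nhds (hW.mem_nhds (hp t ht))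
  · intro p hp t ht s hs
    rw [sg_sg]
    exact hp _ ⟨mul_nonneg hs.1 ht.1, mul_le_one₀ hs.2 ht.1 ht.2⟩

theorem diag_mem_core {W : Set VV} {x : V2} (h : (x, x) ∈ W) : (x, x) ∈ core W := by
  intro t _
  rw [sg_diag]
  exact h

/-! ### the domains -/

variable {X : Type*} [TopologicalSpace X] [ChartedSpace C2 X] {A : FinAt X} {r : ℕ}

section dom

variable [IsManifold 𝓘(ℂ, C2) ω X] (B : Bun A r) (a b : Fin A.N)

/-- pairs of points joined by a segment in `ov a b` -/
def D0 (A : FinAt X) (a b : Fin A.N) : Set VV := core (A.ov a b ×ˢ A.ov a b)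

theorem starD_D0 : StarD (D0 A a b) := starD_core ((A.isOpen_ov a b).prod (A.isOpen_ov a b))

theorem cfi0 (i : Fin 2) : ContDiffOn ℂ ∞ ((TT B a b).fi i) (D0 A a b) := by
  have h1 : ContDiffOn ℂ ∞ (fun p : VV => A.tau a b p.2) (D0 A a b) :=
    (tau_contDiffOn a b).comp contDiff_snd.contDiffOn fun p hp => (core_sub _ hp).2
  exact (ContinuousLinearMap.proj (R := ℂ) (φ := fun _ : Fin 2 => ℂ) i).contDiff.comp_contDiffOn h1

theorem cM0 (i k : Fin 2) : ContDiffOn ℂ ∞ ((TT B a b).M i k) (D0 A a b) :=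
  Io_contDiffOn (starD_D0 a b) (dy_contDiffOn (starD_D0 a b).isOpen (cfi0 B a b i) k) 0

theorem cdM0 : ContDiffOn ℂ ∞ (TT B a b).dM (D0 A a b) :=
  ((cM0 B a b 0 0).mul (cM0 B a b 1 1)).sub ((cM0 B a b 0 1).mul (cM0 B a b 1 0))

/-- the domain -/
def dom : Set VV := core (D0 A a b ∩ (TT B a b).dM ⁻¹' {0}ᶜ)

theorem starD_dom : StarD (dom B a b) :=
  starD_core ((cdM0 B a b).continuousOn.isOpen_inter_preimage (starD_D0 a b).isOpen
    isOpen_compl_singleton)

theorem dom_sub_D0 : dom B a b ⊆ D0 A a b := (core_sub _).trans inter_subset_left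

theorem dom_sub : dom B a b ⊆ A.ov a b ×ˢ A.ov a b := (dom_sub_D0 B a b).trans (core_sub _)

variable {a b}

theorem M0_diag {x : V2} (hx : x ∈ A.ov a b) (i k : Fin 2) :
    (TT B a b).M i k (x, x) = (TT B a b).df i k x := by
  have hd : DifferentiableAt ℂ (A.tau a b) x := (FinAt.tau_analyticAt hx).differentiableAt
  have hi : HasFDerivAt (fun y => A.tau a b y i)
      ((ContinuousLinearMap.proj (R := ℂ) (φ := fun _ : Fin 2 => ℂ) i).comp
        (fderiv ℂ (A.tau a b) x)) x :=
    (ContinuousLinearMap.proj (R := ℂ) (φ := fun _ : Fin 2 => ℂ) i).hasFDerivAt.comp x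
      hd.hasFDerivAt
  have h1 := dy_snd (φ := fun y => A.tau a b y i) (p := ((x, x) : VV)) hi.differentiableAt k
  rw [Tr.M, Io_diag]
  have h2 : dy k ((TT B a b).fi i) (x, x) = fderiv ℂ (fun y => A.tau a b y i) x (ee k) := h1
  rw [h2, hi.fderiv]
  simp only [Nat.cast_zero, zero_add, one_smul, div_one]
  rfl

theorem dM0_diag {x : V2} (hx : x ∈ A.ov a b) : (TT B a b).dM (x, x) ≠ 0 := by
  have h : (TT B a b).dM (x, x) = (TT B a b).jac x := by
    simp only [Tr.dM, Tr.jac, M0_diag B hx]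
  rw [h, TT_jac B hx]
  exact FinAt.J_det_ne hx

theorem diag_mem_dom {x : V2} (hx : x ∈ A.ov a b) : (x, x) ∈ dom B a b :=
  diag_mem_core ⟨diag_mem_core ⟨hx, hx⟩, dM0_diag B hx⟩

variable (a b)

theorem contDiffOn_mL {E : C2 → Matrix (Fin r) (Fin r) ℂ} {Ω : Set C2}
    (hE : ∀ z ∈ Ω, ∀ i j, AnalyticAt ℂ (fun z => E z i j) z) :
    ContDiffOn ℂ ∞ (fun z => mL (E z)) Ω := by
  rw [contDiffOn_clm_apply]
  intro v
  rw [contDiffOn_pi]
  intro i z hz
  simp only [mL_apply, Matrix.mulVec, dotProduct]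
  refine ContDiffWithinAt.sum fun j _ => ?_
  exact ((hE z hz i j).contDiffAt.mul contDiffAt_const).contDiffWithinAt

theorem mL_mul (M N : Matrix (Fin r) (Fin r) ℂ) : mL M * mL N = mL (M * N) := by
  ext v : 1
  simp [Matrix.mulVec_mulVec]

theorem mL_one : mL (1 : Matrix (Fin r) (Fin r) ℂ) = 1 := by
  ext v : 1
  simp

theorem on_dom : (TT B a b).On (dom B a b) (A.ov a b) where
  star := starD_dom B a b
  isOpen := A.isOpen_ov a b
  snd_mem p hp := (dom_sub B a b hp).2
  hf := tau_contDiffOn a b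
  he := contDiffOn_mL fun z hz i j => B.hol a b z hz i j
  hei := contDiffOn_mL fun z hz i j => by
    have h := B.hol b a _ (FinAt.tau_mem hz) i j
    exact h.comp (f := A.tau a b) (FinAt.tau_analyticAt hz)
  e_ei y hy := by
    have h1 : B.E b a (A.tau a b y) * B.E a b y = 1 := by
      rw [B.comp a b a y hy ⟨hy.1, hy.1.2⟩, B.self a y hy.1]
    have h2 := mul_eq_one_comm.1 h1
    change mL (B.E a b y) * mL (B.E b a (A.tau a b y)) = 1
    rw [mL_mul, h2, mL_one]
  ei_e y hy := by
    have h1 : B.E b a (A.tau a b y) * B.E a b y = 1 := by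
      rw [B.comp a b a y hy ⟨hy.1, hy.1.2⟩, B.self a y hy.1]
    change mL (B.E b a (A.tau a b y)) * mL (B.E a b y) = 1
    rw [mL_mul, h1, mL_one]
  dM_ne p hp := (core_sub _ hp).2

end dom

/-! ### the glue data -/

/-- **existence of the glue data** on a compact surface -/
theorem exists_gl [T2Space X] [CompactSpace X] [IsManifold 𝓘(ℂ, C2) ω X] (B : Bun A r) :
    Nonempty (Gl B) := by
  have hsp : ∀ a, IsClosed (sp A a) := fun a => isClosed_tsupport _
  have hspU : ∀ a, sp A a ⊆ A.U a := fun a => A.rho_supp a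
  -- the cut-off functions `χ a`
  choose χ hχs hχc hχO _hχ01 Wχ hWo hKW _hWO hχ1 using fun a : Fin A.N =>
    H462.exists_cutoff (isCompact_K a) (A.isOpen_O a) (K_sub (A := A) a)
  -- the radius
  let J : Type := (Fin A.N × Fin A.N × Fin A.N) ⊕ Fin A.N
  let KK : J → Set C2 := Sum.elim
    (fun t => im A t.1 (sp A t.1 ∩ sp A t.2.1 ∩ sp A t.2.2)) fun a => tsupport (χ a)
  let OO : J → Set C2 := Sum.elim (fun t => A.ov t.1 t.2.1 ∩ A.ov t.1 t.2.2) fun a => A.O a
  have hsub : ∀ a b c : Fin A.N, sp A a ∩ sp A b ∩ sp A c ⊆ A.U a := fun a b c x hx =>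
    hspU a hx.1.1
  obtain ⟨ε, hε, hball⟩ := exists_eps_finite (K := KK) (O := OO)
    (by
      rintro (⟨a, b, c⟩ | a)
      · exact isCompact_im (((hsp a).inter (hsp b)).inter (hsp c)).isCompact (hsub a b c)
      · exact (hχc a).isCompact)
    (by
      rintro (⟨a, b, c⟩ | a)
      · exact (A.isOpen_ov a b).inter (A.isOpen_ov a c)
      · exact A.isOpen_O a)
    (by
      rintro (⟨a, b, c⟩ | a)
      · rintro _ ⟨x, hx, rfl⟩
        exact ⟨FinAt.mem_ov (hspU a hx.1.1) (hspU b hx.1.2), FinAt.mem_ov (hspU a hx.1.1) (hspU c hx.2)⟩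
      · exact hχO a)
  obtain ⟨η, hη, hηs, -⟩ := exists_isCutoff hε
  -- the cut-off functions `θ a b`
  have hcomp : ∀ a b : Fin A.N, IsCompact ((fun z : C2 => (z, z)) '' im A a (sp A a ∩ sp A b)) :=
    fun a b => (isCompact_im ((hsp a).inter (hsp b)).isCompact
      (inter_subset_left.trans (hspU a))).image (by fun_prop)
  have hopen : ∀ a b : Fin A.N, IsOpen (dom B a b ∩ {p : C2 × C2 | dist p.2 p.1 < ε}) := fun a b =>
    (starD_dom B a b).isOpen.inter
      (isOpen_lt (continuous_snd.dist continuous_fst) continuous_const)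
  have hmem : ∀ a b : Fin A.N, (fun z : C2 => (z, z)) '' im A a (sp A a ∩ sp A b) ⊆
      dom B a b ∩ {p : C2 × C2 | dist p.2 p.1 < ε} := by
    rintro a b _ ⟨z, ⟨x, hx, rfl⟩, rfl⟩
    refine ⟨diag_mem_dom B (FinAt.mem_ov (hspU a hx.1) (hspU b hx.2)), ?_⟩
    simp [hε]
  choose θ hθs hθc hθO _hθ01 Wθ hWθo hKWθ _hWθO hθ1 using fun a b : Fin A.N =>
    H462.exists_cutoff (hcomp a b) (hopen a b) (hmem a b)
  exact ⟨
    { ε := ε
      ε_pos := hε
      ball := fun a b c z hz => hball (Sum.inl (a, b, c)) z hz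
      η := η
      η_cut := hη
      η_supp := hηs
      χ := χ
      χ_smooth := hχs
      χ_comp := hχc
      χ_one := fun a => ⟨Wχ a, hWo a, hKW a, hχ1 a⟩
      χ_ball := fun a x hx => hball (Sum.inr a) x hx
      D := fun a b => dom B a b
      D_on := fun a b => on_dom B a b
      D_sub := fun a b => dom_sub B a b
      D_diag := fun a b x hx => diag_mem_dom B hx
      θ := θ
      θ_smooth := hθs
      θ_comp := hθc
      θ_supp := fun a b => (hθO a b).trans inter_subset_left
      θ_near := fun a b p hp => mem_closedBall.2 (le_of_lt (hθO a b hp).2)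
      θ_one := fun a b => ⟨Wθ a b, hWθo a b, fun z hz => hKWθ a b ⟨z, hz, rfl⟩, hθ1 a b⟩ }⟩

end Vale.Agent.P267.H518
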